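import Vale.Agent.P088.R2.H808.S4.PiA

/-!
# P088, stage 4, row X-PI: the value of the form on the approximate solution, with a cut-off
-/

open MeasureTheory Set
open scoped ContDiff Matrix

noncomputable section

namespace Vale.Agent.P088.S4.H808

open Vale.Agent.P088.LR Vale.Agent.P088.LR.U Vale.Agent.P088.LR.H158
open Vale.Agent.P088.HY (VV)
open Vale.Agent.P088.PJ Vale.Agent.P088.PJ.H605

variable {n N : ℕ}

/-! ### algebra at a point -/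

section alg

variable {E : Fin n → Matrix (Fin N) (Fin N) ℂ} {P Q : Matrix (Fin N) (Fin N) ℂ}

theorem tr1 (E A P : Matrix (Fin N) (Fin N) ℂ) (s : ℂ) :
    (E * (A * (s • P))).trace = ((s • (P * E)) * A).trace := by
  rw [Matrix.mul_smul, Matrix.mul_smul, Matrix.smul_mul, Matrix.trace_smul, Matrix.trace_smul,
    ← Matrix.mul_assoc, Matrix.trace_mul_comm, ← Matrix.mul_assoc]

theorem tr2 (hPi : Q * P = 1) (E K V : Matrix (Fin N) (Fin N) ℂ) :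
    (E * (K * V)).trace = (V * Q * (P * E) * K).trace := by
  have e : V * Q * (P * E) = V * E := by
    rw [Matrix.mul_assoc V Q, ← Matrix.mul_assoc Q P, hPi, Matrix.one_mul]
  rw [e, ← Matrix.mul_assoc, Matrix.trace_mul_comm, ← Matrix.mul_assoc]

theorem tr3 (E A P : Matrix (Fin N) (Fin N) ℂ) : (E * (A * P)).trace = (P * E * A).trace := by
  rw [← Matrix.mul_assoc, Matrix.trace_mul_comm, ← Matrix.mul_assoc]

theorem alg1 (hPi : Q * P = 1) (k : Fin n → Fin n → Matrix (Fin N) (Fin N) ℂ)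
    (dk : Fin n → Fin n → Fin n → Matrix (Fin N) (Fin N) ℂ) (s : Fin n → Fin n → ℂ)
    (V : Fin n → Matrix (Fin N) (Fin N) ℂ) (m : Fin n → Fin n → ℂ)
    (L : Fin n → Matrix (Fin N) (Fin N) ℂ) :
    ∑ b, (E b * ((2 : ℂ) • (∑ i, ∑ j, dk i j b * (s i j • P)) + ∑ j, k j b * V j +
        (∑ l, m b l • L l) * P)).trace =
      2 * (∑ i, ∑ j, ∑ b, ((s i j • (P * E b)) * dk i j b).trace)
        + (∑ j, ∑ b, (V j * Q * (P * E b) * k j b).trace)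
        + ∑ l, ((∑ b, m b l • (P * E b)) * L l).trace := by
  have h1 : ∀ b, (E b * ((2 : ℂ) • (∑ i, ∑ j, dk i j b * (s i j • P)) + ∑ j, k j b * V j +
        (∑ l, m b l • L l) * P)).trace =
      2 * (∑ i, ∑ j, ((s i j • (P * E b)) * dk i j b).trace)
        + (∑ j, (V j * Q * (P * E b) * k j b).trace)
        + ∑ l, m b l * (P * E b * L l).trace := by
    intro b
    rw [Matrix.mul_add, Matrix.mul_add, Matrix.trace_add, Matrix.trace_add, Matrix.mul_smul,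
      Matrix.trace_smul, smul_eq_mul]
    congr 1
    · congr 1
      · congr 1
        simp only [Matrix.mul_sum, Matrix.trace_sum]
        exact Finset.sum_congr rfl fun i _ => Finset.sum_congr rfl fun j _ => tr1 _ _ _ _
      · simp only [Matrix.mul_sum, Matrix.trace_sum]
        exact Finset.sum_congr rfl fun j _ => tr2 hPi _ _ _
    · rw [tr3]
      simp only [Matrix.mul_sum, Matrix.trace_sum, Matrix.mul_smul, Matrix.trace_smul, smul_eq_mul]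
  rw [Finset.sum_congr rfl fun b _ => h1 b, Finset.sum_add_distrib, Finset.sum_add_distrib,
    ← Finset.mul_sum]
  have f1 : ∑ b, ∑ i, ∑ j, ((s i j • (P * E b)) * dk i j b).trace =
      ∑ i, ∑ j, ∑ b, ((s i j • (P * E b)) * dk i j b).trace := by
    rw [Finset.sum_comm]
    exact Finset.sum_congr rfl fun i _ => Finset.sum_comm
  have f2 : ∑ b, ∑ j, (V j * Q * (P * E b) * k j b).trace =
      ∑ j, ∑ b, (V j * Q * (P * E b) * k j b).trace := Finset.sum_comm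
  have f3 : ∑ b, ∑ l, m b l * (P * E b * L l).trace =
      ∑ l, ((∑ b, m b l • (P * E b)) * L l).trace := by
    rw [Finset.sum_comm]
    refine Finset.sum_congr rfl fun l _ => ?_
    rw [Matrix.sum_mul, Matrix.trace_sum]
    refine Finset.sum_congr rfl fun b _ => ?_
    rw [Matrix.smul_mul, Matrix.trace_smul, smul_eq_mul]
  rw [f1, f2, f3]

theorem alg2 (Z k : Fin n → Fin n → Matrix (Fin N) (Fin N) ℂ)
    (dC : Fin n → Fin n → Fin n → Matrix (Fin N) (Fin N) ℂ)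
    (ds : Fin n → Fin n → Fin n → ℂ) (br bl C F : Fin n → Matrix (Fin N) (Fin N) ℂ) :
    ∑ j, ∑ b, ((Z j b + (2 : ℂ) • ∑ i, dC i j b - br j * C b - ∑ l, ds l j b • F l
        - F b * bl j) * k j b).trace =
      (∑ j, ∑ b, (Z j b * k j b).trace) + 2 * (∑ i, ∑ j, ∑ b, (dC i j b * k j b).trace)
        - (∑ j, ∑ b, (br j * C b * k j b).trace)
        - ∑ l, (F l * (∑ i, ∑ j, ds l i j • k i j + ∑ j, bl j * k j l)).trace := by
  have h1 : ∀ j b, ((Z j b + (2 : ℂ) • ∑ i, dC i j b - br j * C b - ∑ l, ds l j b • F l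
        - F b * bl j) * k j b).trace = (Z j b * k j b).trace
        + 2 * (∑ i, (dC i j b * k j b).trace) - (br j * C b * k j b).trace
        - (∑ l, ds l j b * (F l * k j b).trace) - (F b * bl j * k j b).trace := by
    intro j b
    rw [Matrix.sub_mul, Matrix.sub_mul, Matrix.sub_mul, Matrix.add_mul, Matrix.trace_sub,
      Matrix.trace_sub, Matrix.trace_sub, Matrix.trace_add, Matrix.smul_mul, Matrix.trace_smul,
      smul_eq_mul, Matrix.sum_mul, Matrix.sum_mul, Matrix.trace_sum, Matrix.trace_sum]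
    simp only [Matrix.smul_mul, Matrix.trace_smul, smul_eq_mul]
  have h2 : ∀ l, (F l * (∑ i, ∑ j, ds l i j • k i j + ∑ j, bl j * k j l)).trace =
      (∑ i, ∑ j, ds l i j * (F l * k i j).trace) + ∑ j, (F l * (bl j * k j l)).trace := by
    intro l
    rw [Matrix.mul_add, Matrix.trace_add, Matrix.mul_sum, Matrix.mul_sum, Matrix.trace_sum,
      Matrix.trace_sum]
    congr 1
    refine Finset.sum_congr rfl fun i _ => ?_
    rw [Matrix.mul_sum, Matrix.trace_sum]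
    refine Finset.sum_congr rfl fun j _ => ?_
    rw [Matrix.mul_smul, Matrix.trace_smul, smul_eq_mul]
  rw [Finset.sum_congr rfl fun j _ => Finset.sum_congr rfl fun b _ => h1 j b,
    Finset.sum_congr rfl fun l _ => h2 l]
  simp only [Finset.sum_add_distrib, Finset.sum_sub_distrib, ← Finset.mul_sum]
  have e1 : ∑ j, ∑ b, ∑ i, (dC i j b * k j b).trace = ∑ i, ∑ j, ∑ b, (dC i j b * k j b).trace := by
    rw [Finset.sum_comm]
    rw [Finset.sum_congr rfl fun b _ => Finset.sum_comm]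
    rw [Finset.sum_comm]
    exact Finset.sum_congr rfl fun i _ => Finset.sum_comm
  have e2 : ∑ j, ∑ b, ∑ l, ds l j b * (F l * k j b).trace =
      ∑ l, ∑ j, ∑ b, ds l j b * (F l * k j b).trace := by
    rw [Finset.sum_comm]
    rw [Finset.sum_congr rfl fun b _ => Finset.sum_comm]
    rw [Finset.sum_comm]
    exact Finset.sum_congr rfl fun i _ => Finset.sum_comm
  have e3 : ∑ j, ∑ b, (F b * bl j * k j b).trace = ∑ l, ∑ j, (F l * (bl j * k j l)).trace := by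
    rw [Finset.sum_comm]
    simp only [Matrix.mul_assoc]
  rw [e1, e2, e3]
  ring

end alg

/-! ### the value of the form -/

section RL

variable {k : ℕ} {δ : ℝ} {j₀ : Fin N} {O K : Set (V n)} {s₁ s₂ : MF n} {P₁ P₂ : MC n N}
  {G₁ G₂ : Fin n → MC n N} {β Y D : Fin n → MC n N}

theorem sZt (h : RL k δ O K j₀ s₁ s₂ P₁ P₂ G₁ G₂ β Y D) (i j : Fin n) : SmC (Zt s₁ s₂ P₁ P₂ i j) :=
  smC_sub (smC_TP h.d₂.ss h.d₂.sP i j) (smC_TP h.d₁.ss h.d₁.sP i j)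

theorem pdm_loc {U F : MC n N} {x : V n} (h : U =ᶠ[nhds x] F) (i : Fin n) :
    pdm i U =ᶠ[nhds x] pdm i F := by
  filter_upwards [h.eventuallyEq_nhds] with y hy
  ext a b
  show fderiv ℝ (fun z => U z a b) y _ = fderiv ℝ (fun z => F z a b) y _
  have e : (fun z => U z a b) =ᶠ[nhds y] fun z => F z a b := by
    filter_upwards [hy] with z hz
    rw [hz]
  rw [e.fderiv_eq]

theorem pdm_loc0 {U : MC n N} {x : V n} (h : ∀ᶠ y in nhds x, U y = 0) (i : Fin n) :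
    ∀ᶠ y in nhds x, pdm i U y = 0 := by
  have h1 : U =ᶠ[nhds x] fun _ => 0 := h
  filter_upwards [pdm_loc h1 i] with y hy
  rw [hy]
  ext a b
  show fderiv ℝ (fun z => (0 : Matrix (Fin N) (Fin N) ℂ) a b) y _ = 0
  simp

/-- Both sides vanish near a point off `K`. -/
theorem MoC_loc0 {T : Fin n → Fin n → MC n N} {κ : Fin n → MC n N} {U : MC n N} {x : V n}
    (h : (∀ᶠ y in nhds x, U y = 0) ∨
      ((∀ i j, ∀ᶠ y in nhds x, T i j y = 0) ∧ ∀ i, ∀ᶠ y in nhds x, κ i y = 0)) :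
    MoC T κ U x = 0 := by
  unfold MoC
  rcases h with h | ⟨h1, h2⟩
  · have e1 : ∀ i, pdm i (fun y => ∑ j, T i j y * pdm j U y) x = 0 := fun i =>
      (pdm_loc0 (by
        filter_upwards [Filter.eventually_all.2 fun j => pdm_loc0 h j] with y hy
        exact Finset.sum_eq_zero fun j _ => by rw [hy j, Matrix.mul_zero]) i).self_of_nhds
    have e2 : ∀ i, pdm i U x = 0 := fun i => (pdm_loc0 h i).self_of_nhds
    simp only [e1, e2, Matrix.mul_zero, Finset.sum_const_zero, add_zero]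
  · have e1 : ∀ i, pdm i (fun y => ∑ j, T i j y * pdm j U y) x = 0 := fun i =>
      (pdm_loc0 (by
        filter_upwards [Filter.eventually_all.2 fun j => h1 i j] with y hy
        exact Finset.sum_eq_zero fun j _ => by rw [hy j, Matrix.zero_mul]) i).self_of_nhds
    have e2 : ∀ i, κ i x = 0 := fun i => (h2 i).self_of_nhds
    simp only [e1, e2, Matrix.zero_mul, Finset.sum_const_zero, add_zero]

/-- Points near a point of `O \ K`. -/
theorem offK (h : RL k δ O K j₀ s₁ s₂ P₁ P₂ G₁ G₂ β Y D) {x : V n} (hx : x ∈ O) (hK : x ∉ K) :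
    ∀ᶠ y in nhds x, y ∈ O ∧ y ∉ K :=
  (h.op.eventually_mem hx).and (h.cl.isOpen_compl.eventually_mem hK)

theorem dqD (h : RL k δ O K j₀ s₁ s₂ P₁ P₂ G₁ G₂ β Y D) (a : Fin n) {x : V n} (hx : x ∈ O) :
    (∑ i, pdm i (kp s₂ G₂ i) x) * D a x = 0 := by
  by_cases hK : x ∈ K
  · rw [h.d₂.dq x ⟨hx, hK⟩, Matrix.zero_mul]
  · rw [h.oD a x hx hK, Matrix.mul_zero]

/-- The gauge identity `(M₂ - M₁) Y_a = - M₂ D_a` on the chart. -/
theorem gaugeL (h : RL k δ O K j₀ s₁ s₂ P₁ P₂ G₁ G₂ β Y D) (a : Fin n) {x : V n} (hx : x ∈ O) :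
    MoC (Zt s₁ s₂ P₁ P₂) (Qt s₁ s₂ G₁ G₂) (Y a) x = -MoC (TP s₂ P₂) (kp s₂ G₂) (D a) x := by
  by_cases hK : x ∉ K
  · rw [MoC_loc0 (Or.inr ⟨fun i j => ?_, fun i => ?_⟩), MoC_loc0 (Or.inl ?_), neg_zero]
    · filter_upwards [offK h hx hK] with y hy
      exact h.oD a y hy.1 hy.2
    · filter_upwards [offK h hx hK] with y hy
      unfold Zt TP
      rw [h.os y hy.1 hy.2, h.oP y hy.1 hy.2, sub_self]
    · filter_upwards [offK h hx hK] with y hy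
      unfold Qt kp
      rw [h.os y hy.1 hy.2]
      simp only [h.oG _ y hy.1 hy.2, sub_self]
  push Not at hK
  have sT₁ := smC_TP h.d₁.ss h.d₁.sP
  have sT₂ := smC_TP h.d₂.ss h.d₂.sP
  have h1 : MoC (Zt s₁ s₂ P₁ P₂) (Qt s₁ s₂ G₁ G₂) (Y a) x = _ :=
    MoC_subT sT₁ sT₂ (kp s₁ G₁) (kp s₂ G₂) (h.sY a) x
  have h2 := h.gi a x ⟨hx, hK⟩
  rw [MoC_add sT₂ _ (h.sY a) (h.sD a)] at h2
  rw [h1, h.hY a x ⟨hx, hK⟩, sub_zero]
  exact eq_neg_of_add_eq_zero_left h2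

/-- The form on the approximate solution, pointwise. -/
theorem dgB_val (h : RL k δ O K j₀ s₁ s₂ P₁ P₂ G₁ G₂ β Y D) {σ : MF n} (hσ : SmM σ) {k2 : Fin n → Fin n → MC n N} {W : Fin n → MC n N} {W0 : MC n N}
    (sk : ∀ i j, SmC (k2 i j)) (sy : ∀ i j, k2 i j = k2 j i) (sW : ∀ a, SmC (W a)) (s0 : SmC W0)
    {x : V n} (hx : x ∈ O) :
    dgB s₁ s₂ P₁ P₂ G₁ G₂ (Kq s₁ σ β Y k2 W W0) x =
      -(∑ i, ∑ j, (Zt s₁ s₂ P₁ P₂ i j x * k2 i j x).trace)
      + ∑ a, (D a x * MtC (TP s₂ P₂) (kp s₂ G₂) (W a) x).trace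
      + ∑ a, ∑ i, pd i (Hf (Zt s₁ s₂ P₁ P₂) (TP s₂ P₂) (kp s₂ G₂) (Y a) (D a) (W a) i) x := by
  have hq : ∀ b : Fin n, qq b (x, x) = 0 := fun b => by simp [qq]
  have h1 : ∀ a, ∑ i, pd i (Hf (Zt s₁ s₂ P₁ P₂) (TP s₂ P₂) (kp s₂ G₂) (Y a) (D a) (W a) i) x = _ :=
    fun a => pt_id (sZt h) (smC_TP h.d₂.ss h.d₂.sP) (smC_kp h.d₂.ss h.d₂.sG) (h.sY a) (h.sD a)
      (sW a) (gaugeL h a hx) (dqD h a hx)
  simp only [h1]
  unfold dgB
  simp only [Kq_dxy h.d₁.ss hσ h.sβ sk h.sY sW s0, Kq_dx h.d₁.ss hσ h.sβ sk h.sY sW s0]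
  simp only [dxy sk h.sY sW s0 sy]
  simp only [dx1 sk h.sY sW s0 sy, hq, zero_smul, Finset.sum_const_zero, zero_sub, zero_add,
    Matrix.mul_add, Matrix.mul_neg, Matrix.trace_add, Matrix.trace_neg, Finset.sum_add_distrib,
    Finset.sum_neg_distrib, Finset.mul_sum, Matrix.trace_sum, Finset.sum_sub_distrib]
  have e1 : ∑ i, ∑ j, (Zt s₁ s₂ P₁ P₂ j i x * k2 j i x).trace =
      ∑ i, ∑ j, (Zt s₁ s₂ P₁ P₂ i j x * k2 i j x).trace := Finset.sum_comm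
  have e2 : ∑ i, ∑ j, ∑ a, (Zt s₁ s₂ P₁ P₂ j i x * (pdm i (Y a) x * pdm j (W a) x)).trace =
      ∑ a, ∑ i, ∑ j, (Zt s₁ s₂ P₁ P₂ j i x * (pdm i (Y a) x * pdm j (W a) x)).trace := by
    symm
    rw [Finset.sum_comm]
    exact Finset.sum_congr rfl fun i _ => Finset.sum_comm
  have e3 : ∑ i, ∑ a, (Qt s₁ s₂ G₁ G₂ i x * (pdm i (Y a) x * W a x)).trace =
      ∑ a, ∑ i, (Qt s₁ s₂ G₁ G₂ i x * (pdm i (Y a) x * W a x)).trace := Finset.sum_comm
  rw [e1, e2, e3]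
  ring

end RL

/-! ### the divergence terms -/

/-- `J_i = ∑ tr (s_ij 𝒟_b k_jb)`. -/
def Jf (s₂ : MF n) (P₂ : MC n N) (Γ : Fin n → Fin n → MC n N) (D : Fin n → MC n N)
    (k2 : Fin n → Fin n → MC n N) (i : Fin n) : V n → ℂ := fun x =>
  ∑ j, ∑ b, (((s₂ x i j : ℂ) • Db P₂ Γ D b x) * k2 j b x).trace

section J

variable {s₂ : MF n} {P₂ : MC n N} {Γ : Fin n → Fin n → MC n N} {D : Fin n → MC n N}
    {k2 : Fin n → Fin n → MC n N}

theorem smC_Db (sP : SmC P₂) (sΓ : ∀ a b, SmC (Γ a b)) (sD : ∀ a, SmC (D a)) (b : Fin n) :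
    SmC (Db P₂ Γ D b) := SmC_mul sP (smC_sum fun a => SmC_mul (sD a) (sΓ a b))

theorem sm_Jf (hs : SmM s₂) (sP : SmC P₂) (sΓ : ∀ a b, SmC (Γ a b)) (sD : ∀ a, SmC (D a))
    (sk : ∀ i j, SmC (k2 i j)) (i : Fin n) : ContDiff ℝ ∞ (Jf s₂ P₂ Γ D k2 i) :=
  ContDiff.sum fun j _ => ContDiff.sum fun b _ =>
    contDiff_trace (SmC_mul (smC_smulr (hs i j) (smC_Db sP sΓ sD b)) (sk j b))

theorem pd_Jf (hs : SmM s₂) (sP : SmC P₂) (sΓ : ∀ a b, SmC (Γ a b)) (sD : ∀ a, SmC (D a))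
    (sk : ∀ i j, SmC (k2 i j)) (i : Fin n) (x : V n) : pd i (Jf s₂ P₂ Γ D k2 i) x =
      (∑ j, ∑ b, (pdm i (fun y => (s₂ y i j : ℂ) • Db P₂ Γ D b y) x * k2 j b x).trace)
        + ∑ j, ∑ b, (((s₂ x i j : ℂ) • Db P₂ Γ D b x) * pdm i (k2 j b) x).trace := by
  have h1 : ∀ j b, SmC (fun y => (s₂ y i j : ℂ) • Db P₂ Γ D b y) := fun j b =>
    smC_smulr (hs i j) (smC_Db sP sΓ sD b)
  have h2 : ∀ j b, SmC (fun x => ((s₂ x i j : ℂ) • Db P₂ Γ D b x) * k2 j b x) := fun j b =>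
    SmC_mul (h1 j b) (sk j b)
  have e : Jf s₂ P₂ Γ D k2 i =
      fun x => ∑ j, ∑ b, (((s₂ x i j : ℂ) • Db P₂ Γ D b x) * k2 j b x).trace := rfl
  rw [e, pd_sum fun j _ => dfa (ContDiff.sum fun b _ => contDiff_trace (h2 j b)) x,
    ← Finset.sum_add_distrib]
  refine Finset.sum_congr rfl fun j _ => ?_
  rw [pd_sum fun b _ => dfa (contDiff_trace (h2 j b)) x, ← Finset.sum_add_distrib]
  refine Finset.sum_congr rfl fun b _ => ?_
  rw [pd_trace (h2 j b), ← Matrix.trace_add]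
  congr 1
  exact pdm_of_HD ((hd_pdm (h1 j b) i).mul (hd_pdm (sk j b) i)) x

/-- The boundary form. -/
theorem Bj_eq (s₁ : MF n) (P₁ : MC n N) (G₂ Y W : Fin n → MC n N) (i : Fin n) :
    Bj s₁ s₂ P₁ P₂ G₂ Y D Γ k2 W i = fun x =>
      ∑ a, Hf (Zt s₁ s₂ P₁ P₂) (TP s₂ P₂) (kp s₂ G₂) (Y a) (D a) (W a) i x
        + 2 * Jf s₂ P₂ Γ D k2 i x := by
  funext x
  have e1 : 2 * Jf s₂ P₂ Γ D k2 i x =
      2 * ∑ a, ∑ b, ∑ l, (D a x * Γ a b x * k2 l b x * TP s₂ P₂ i l x).trace := by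
    congr 1
    unfold Jf Db TP
    have h : ∀ j b, (((s₂ x i j : ℂ) • (P₂ x * ∑ a, D a x * Γ a b x)) * k2 j b x).trace =
        ∑ a, (D a x * Γ a b x * k2 j b x * ((s₂ x i j : ℂ) • P₂ x)).trace := by
      intro j b
      rw [← tr1, Matrix.sum_mul, Matrix.trace_sum]
      exact Finset.sum_congr rfl fun a _ => by rw [Matrix.mul_assoc (D a x * Γ a b x)]
    simp only [h]
    rw [Finset.sum_comm]
    rw [Finset.sum_congr rfl fun b _ => Finset.sum_comm]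
    exact Finset.sum_comm
  rw [e1]
  unfold Bj
  congr 1
  unfold Hf Uf Ef
  simp only [Matrix.trace_add, Matrix.trace_sub, Finset.sum_add_distrib, Finset.sum_sub_distrib,
    Matrix.sum_mul, Matrix.mul_sum, Matrix.trace_sum]
  have f1 : ∑ l, ∑ a, (Zt s₁ s₂ P₁ P₂ i l x * pdm l (Y a) x * W a x).trace =
      ∑ a, ∑ l, (Zt s₁ s₂ P₁ P₂ i l x * pdm l (Y a) x * W a x).trace := Finset.sum_comm
  have f2 : ∑ l, ∑ a, (TP s₂ P₂ i l x * pdm l (D a) x * W a x).trace =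
      ∑ a, ∑ l, (TP s₂ P₂ i l x * pdm l (D a) x * W a x).trace := Finset.sum_comm
  have f3 : ∑ l, ∑ a, (TP s₂ P₂ l i x * D a x * pdm l (W a) x).trace =
      ∑ a, ∑ l, (D a x * (pdm l (W a) x * TP s₂ P₂ l i x)).trace := by
    rw [Finset.sum_comm]
    refine Finset.sum_congr rfl fun a _ => Finset.sum_congr rfl fun l _ => ?_
    rw [tr3]
  rw [f1, f2, f3]
  ring

end J

/-! ### the cut-off -/

theorem ibp {χ : V n → ℝ} (hχ : ContDiff ℝ ∞ χ) (hc : HasCompactSupport χ) {B : V n → ℂ}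
    (hB : ContDiff ℝ ∞ B) (i : Fin n) :
    Integrable (fun x => (χ x : ℂ) * pd i B x) ∧ Integrable (fun x => ((pd i χ x : ℝ) : ℂ) * B x) ∧
      ∫ x, (χ x : ℂ) * pd i B x = -∫ x, ((pd i χ x : ℝ) : ℂ) * B x := by
  have hχc : ContDiff ℝ ∞ fun x => (χ x : ℂ) := Complex.ofRealCLM.contDiff.comp hχ
  have c1 : HasCompactSupport fun x => (χ x : ℂ) := hc.comp_left (g := fun r : ℝ => (r : ℂ))
    Complex.ofReal_zero
  have c2 : HasCompactSupport fun x => ((pd i χ x : ℝ) : ℂ) :=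
    (hc.fderiv_apply ℝ (Pi.single i 1)).comp_left (g := fun r : ℝ => (r : ℂ)) Complex.ofReal_zero
  have i1 : Integrable (fun x => (χ x : ℂ) * pd i B x) :=
    (hχc.continuous.mul (contDiff_pd hB i).continuous).integrable_of_hasCompactSupport c1.mul_right
  have i2 : Integrable (fun x => ((pd i χ x : ℝ) : ℂ) * B x) :=
    ((Complex.continuous_ofReal.comp (contDiff_pd hχ i).continuous).mul
      hB.continuous).integrable_of_hasCompactSupport c2.mul_right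
  refine ⟨i1, i2, ?_⟩
  have h := (integral_pd_zero (Ω := tsupport fun x => (χ x : ℂ)) c1.isCompact.isBounded
    (G := fun x => (χ x : ℂ) * B x) (hχc.mul hB) (fun x hx => by
      rw [image_eq_zero_of_notMem_tsupport hx, zero_mul]) i).2
  have e : ∀ x, pd i (fun x => (χ x : ℂ) * B x) x =
      ((pd i χ x : ℝ) : ℂ) * B x + (χ x : ℂ) * pd i B x := by
    intro x
    have e1 : pd i (fun x => (χ x : ℂ)) x = ((pd i χ x : ℝ) : ℂ) := by
      unfold pd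
      have h1 : HasFDerivAt (fun x => (χ x : ℂ)) (Complex.ofRealCLM.comp (fderiv ℝ χ x)) x :=
        Complex.ofRealCLM.hasFDerivAt.comp x (df hχ x).hasFDerivAt
      rw [h1.fderiv]
      rfl
    rw [← e1]
    exact fd_mul (df hχc x) (df hB x) _
  simp only [e] at h
  rw [integral_add i2 i1] at h
  linear_combination h

/-- **(X-PI)** The value of the form on the approximate solution, with a cut-off. -/
theorem rowXPI : RowXPI := by
  intro n N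
  obtain ⟨C, ε, -, hε, hinv⟩ := H91.inv n N 0
  refine ⟨0, ε, hε, ?_⟩
  intro O K j₀ s₁ s₂ P₁ P₂ G₁ G₂ β Y D h Γ hΓ τ hτ _ k2 hk W W₀ hW χ hχ hc hO
  obtain ⟨hu₂, -, -⟩ := hinv P₂ h.d₂.sP ε hε.le le_rfl h.d₂.cP
  have sT₂ := smC_TP h.d₂.ss h.d₂.sP
  have sκ₂ := smC_kp h.d₂.ss h.d₂.sG
  -- the boundary form
  have sH : ∀ a i, ContDiff ℝ ∞
      (Hf (Zt s₁ s₂ P₁ P₂) (TP s₂ P₂) (kp s₂ G₂) (Y a) (D a) (W a) i) := fun a i =>
    contDiff_trace (smC_in (sZt h) sT₂ sκ₂ (h.sY a) (h.sD a) (hW.sW a) i)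
  have sJ := sm_Jf h.d₂.ss h.d₂.sP hΓ.sm h.sD hk.sm
  have sB : ∀ i, ContDiff ℝ ∞ (Bj s₁ s₂ P₁ P₂ G₂ Y D Γ k2 W i) := fun i => by
    rw [Bj_eq]
    exact (ContDiff.sum fun a _ => sH a i).add (contDiff_const.mul (sJ i))
  have pB : ∀ i x, pd i (Bj s₁ s₂ P₁ P₂ G₂ Y D Γ k2 W i) x =
      ∑ a, pd i (Hf (Zt s₁ s₂ P₁ P₂) (TP s₂ P₂) (kp s₂ G₂) (Y a) (D a) (W a) i) x
        + 2 * pd i (Jf s₂ P₂ Γ D k2 i) x := by
    intro i x
    rw [Bj_eq]
    have e1 : pd i (fun x => ∑ a, Hf (Zt s₁ s₂ P₁ P₂) (TP s₂ P₂) (kp s₂ G₂) (Y a) (D a) (W a) i x)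
        x = ∑ a, pd i (Hf (Zt s₁ s₂ P₁ P₂) (TP s₂ P₂) (kp s₂ G₂) (Y a) (D a) (W a) i) x :=
      pd_sum (fun a _ => dfa (sH a i) x) i
    have e2 : pd i (fun x => 2 * Jf s₂ P₂ Γ D k2 i x) x = 2 * pd i (Jf s₂ P₂ Γ D k2 i) x := by
      have := fd_mul (df (contDiff_const (c := (2 : ℂ))) x) (df (sJ i) x) (Pi.single i 1)
      simpa [pd] using this
    rw [← e1, ← e2]
    unfold pd
    rw [fderiv_fun_add (df (ContDiff.sum fun a _ => sH a i) x)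
      (df (contDiff_const.mul (sJ i)) x)]
    rfl
  -- the explicit value
  obtain ⟨E, hE⟩ : ∃ E : V n → ℂ, E = fun x =>
      -(∑ i, ∑ j, (Zt s₁ s₂ P₁ P₂ i j x * k2 i j x).trace)
      + ∑ a, (D a x * MtC (TP s₂ P₂) (kp s₂ G₂) (W a) x).trace
      + ∑ a, ∑ i, pd i (Hf (Zt s₁ s₂ P₁ P₂) (TP s₂ P₂) (kp s₂ G₂) (Y a) (D a) (W a) i) x :=
    ⟨_, rfl⟩
  have sM : ∀ a, SmC (MtC (TP s₂ P₂) (kp s₂ G₂) (W a)) := fun a =>
    smC_sub (smC_sum fun i => smC_pdm (smC_sum fun j => SmC_mul (smC_pdm (hW.sW a) j) (sT₂ j i)) i)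
      (smC_sum fun i => SmC_mul (smC_pdm (hW.sW a) i) (sκ₂ i))
  have cE : Continuous E := by
    rw [hE]
    refine ContDiff.continuous (𝕜 := ℝ) (n := ∞) ?_
    refine ((ContDiff.sum fun i _ => ContDiff.sum fun j _ =>
      contDiff_trace (SmC_mul (sZt h i j) (hk.sm i j))).neg.add (ContDiff.sum fun a _ =>
        contDiff_trace (SmC_mul (h.sD a) (sM a)))).add (ContDiff.sum fun a _ =>
          ContDiff.sum fun i _ => contDiff_pd (sH a i) i)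
  have hχc : Continuous fun x => (χ x : ℂ) := Complex.continuous_ofReal.comp hχ.continuous
  have c1 : HasCompactSupport fun x => (χ x : ℂ) := hc.comp_left (g := fun r : ℝ => (r : ℂ))
    Complex.ofReal_zero
  have h0 : ∀ x ∉ O, χ x = 0 := fun x hx => image_eq_zero_of_notMem_tsupport fun hh => hx (hO hh)
  have eL : ∀ x, (χ x : ℂ) * dgB s₁ s₂ P₁ P₂ G₁ G₂ (Kq s₁ τ β Y k2 W W₀) x =
      (χ x : ℂ) * E x := by
    intro x
    by_cases hx : x ∈ O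
    · rw [dgB_val h hτ hk.sm hk.sy hW.sW hW.s0 hx, hE]
    · rw [h0 x hx, Complex.ofReal_zero, zero_mul, zero_mul]
  have iE : Integrable fun x => (χ x : ℂ) * E x :=
    (hχc.mul cE).integrable_of_hasCompactSupport c1.mul_right
  have iB : Integrable fun x => (χ x : ℂ) * ∑ i, pd i (Bj s₁ s₂ P₁ P₂ G₂ Y D Γ k2 W i) x := by
    simp only [Finset.mul_sum]
    exact integrable_finsetSum _ fun i _ => (ibp hχ hc (sB i) i).1
  -- the main identity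
  have key : ∀ x ∈ O, E x =
      -(∑ i, ∑ j, (VS s₁ s₂ τ P₁ P₂ G₂ β Γ D i j x * k2 i j x).trace)
        + ∑ i, pd i (Bj s₁ s₂ P₁ P₂ G₂ Y D Γ k2 W i) x := by
    intro x hx
    have a1 : ∑ i, ∑ j, (VS s₁ s₂ τ P₁ P₂ G₂ β Γ D i j x * k2 i j x).trace =
        ∑ i, ∑ j, (VR s₁ s₂ τ P₁ P₂ G₂ β Γ D i j x * k2 i j x).trace := by
      unfold VS
      simp only [Matrix.smul_mul, Matrix.trace_smul, Matrix.add_mul, Matrix.trace_add, smul_eq_mul,
        ← Finset.mul_sum, Finset.sum_add_distrib]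
      have : ∑ i, ∑ j, (VR s₁ s₂ τ P₁ P₂ G₂ β Γ D j i x * k2 i j x).trace =
          ∑ i, ∑ j, (VR s₁ s₂ τ P₁ P₂ G₂ β Γ D i j x * k2 i j x).trace := by
        rw [Finset.sum_comm]
        exact Finset.sum_congr rfl fun i _ => Finset.sum_congr rfl fun j _ => by rw [hk.sy j i]
      rw [this]
      ring
    have a2 := alg2 (fun j b => Zt s₁ s₂ P₁ P₂ j b x) (fun j b => k2 j b x)
      (fun i j b => pdm i (fun y => (s₂ y i j : ℂ) • Db P₂ Γ D b y) x)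
      (fun l j b => ((pd l (fun y => s₁ y j b) x : ℝ) : ℂ)) (fun j => bR s₂ P₂ G₂ j x)
      (fun j => β j x) (fun b => Db P₂ Γ D b x)
      (fun l => ∑ c, (mbl s₂ τ c l x : ℂ) • Db P₂ Γ D c x)
    have hQP : (P₂ x)⁻¹ * P₂ x = 1 := Matrix.nonsing_inv_mul _ (hu₂ x)
    have a3 := alg1 (E := fun b => ∑ a, D a x * Γ a b x) hQP (fun j b => k2 j b x)
      (fun i j b => pdm i (k2 j b) x) (fun i j => (s₂ x i j : ℂ))
      (fun j => ∑ i, pdm i (TP s₂ P₂ i j) x - kp s₂ G₂ j x) (fun b l => (mbl s₂ τ b l x : ℂ))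
      (fun l => lb s₁ β k2 l x)
    have a4 : ∑ a, (D a x * MtC (TP s₂ P₂) (kp s₂ G₂) (W a) x).trace =
        ∑ b, ((∑ a, D a x * Γ a b x) * rh s₁ s₂ τ P₂ G₂ β k2 b x).trace := by
      have e1 : ∀ a, D a x * MtC (TP s₂ P₂) (kp s₂ G₂) (W a) x =
          ∑ b, D a x * Γ a b x * rh s₁ s₂ τ P₂ G₂ β k2 b x := by
        intro a
        rw [MtC_eq h.d₂.ss h.d₂.sy h.d₂.sP G₂ (hW.sW a) (hu₂ x), hW.eW a x hx, Matrix.sum_mul,
          Matrix.mul_sum]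
        refine Finset.sum_congr rfl fun b _ => ?_
        rw [Matrix.mul_assoc (Γ a b x * rh s₁ s₂ τ P₂ G₂ β k2 b x), hQP, Matrix.mul_one,
          Matrix.mul_assoc]
      simp only [e1, Matrix.trace_sum, Matrix.sum_mul]
      exact Finset.sum_comm
    have a5 : ∀ b, rh s₁ s₂ τ P₂ G₂ β k2 b x =
        (2 : ℂ) • (∑ i, ∑ j, pdm i (k2 j b) x * ((s₂ x i j : ℂ) • P₂ x)) +
          ∑ j, k2 j b x * (∑ i, pdm i (TP s₂ P₂ i j) x - kp s₂ G₂ j x) +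
          (∑ l, (mbl s₂ τ b l x : ℂ) • lb s₁ β k2 l x) * P₂ x := fun b => rfl
    have a6 : ∑ i, pd i (Jf s₂ P₂ Γ D k2 i) x =
        (∑ i, ∑ j, ∑ b, (pdm i (fun y => (s₂ y i j : ℂ) • Db P₂ Γ D b y) x * k2 j b x).trace)
        + ∑ i, ∑ j, ∑ b, (((s₂ x i j : ℂ) • Db P₂ Γ D b x) * pdm i (k2 j b) x).trace := by
      rw [← Finset.sum_add_distrib]
      exact Finset.sum_congr rfl fun i _ => pd_Jf h.d₂.ss h.d₂.sP hΓ.sm h.sD hk.sm i x
    have a7 : ∑ i, pd i (Bj s₁ s₂ P₁ P₂ G₂ Y D Γ k2 W i) x =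
        (∑ a, ∑ i, pd i (Hf (Zt s₁ s₂ P₁ P₂) (TP s₂ P₂) (kp s₂ G₂) (Y a) (D a) (W a) i) x)
          + 2 * ∑ i, pd i (Jf s₂ P₂ Γ D k2 i) x := by
      simp only [pB, Finset.sum_add_distrib, ← Finset.mul_sum]
      rw [Finset.sum_comm]
    rw [hE]
    show -(∑ i, ∑ j, (Zt s₁ s₂ P₁ P₂ i j x * k2 i j x).trace)
      + ∑ a, (D a x * MtC (TP s₂ P₂) (kp s₂ G₂) (W a) x).trace
      + ∑ a, ∑ i, pd i (Hf (Zt s₁ s₂ P₁ P₂) (TP s₂ P₂) (kp s₂ G₂) (Y a) (D a) (W a) i) x = _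
    rw [a1, a4, a7, a6]
    simp only [a5]
    rw [a3]
    have a2' : ∑ i, ∑ j, (VR s₁ s₂ τ P₁ P₂ G₂ β Γ D i j x * k2 i j x).trace = _ := a2
    rw [a2']
    have b1 : ∀ j b, ((∑ i, pdm i (TP s₂ P₂ i j) x - kp s₂ G₂ j x) * (P₂ x)⁻¹ *
        (P₂ x * ∑ a, D a x * Γ a b x) * k2 j b x).trace =
        (bR s₂ P₂ G₂ j x * Db P₂ Γ D b x * k2 j b x).trace := fun j b => rfl
    have b2 : ∀ l, ((∑ b, (mbl s₂ τ b l x : ℂ) • (P₂ x * ∑ a, D a x * Γ a b x)) *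
        lb s₁ β k2 l x).trace = ((∑ c, (mbl s₂ τ c l x : ℂ) • Db P₂ Γ D c x) *
          (∑ i, ∑ j, ((pd l (fun y => s₁ y i j) x : ℝ) : ℂ) • k2 i j x +
            ∑ j, β j x * k2 j l x)).trace := fun l => rfl
    have b3 : ∀ i j b, (((s₂ x i j : ℂ) • (P₂ x * ∑ a, D a x * Γ a b x)) *
        pdm i (k2 j b) x).trace = (((s₂ x i j : ℂ) • Db P₂ Γ D b x) *
          pdm i (k2 j b) x).trace := fun i j b => rfl
    simp only [b1, b2, b3]
    ring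
  have iV : Integrable fun x => (χ x : ℂ) *
      ∑ i, ∑ j, (VS s₁ s₂ τ P₁ P₂ G₂ β Γ D i j x * k2 i j x).trace := by
    have e : (fun x => (χ x : ℂ) *
        ∑ i, ∑ j, (VS s₁ s₂ τ P₁ P₂ G₂ β Γ D i j x * k2 i j x).trace) = fun x =>
          (χ x : ℂ) * (∑ i, pd i (Bj s₁ s₂ P₁ P₂ G₂ Y D Γ k2 W i) x) - (χ x : ℂ) * E x := by
      funext x
      by_cases hx : x ∈ O
      · rw [key x hx]
        ring
      · rw [h0 x hx, Complex.ofReal_zero]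
        ring
    rw [e]
    exact iB.sub iE
  have e1 : ∫ x, (χ x : ℂ) * dgB s₁ s₂ P₁ P₂ G₁ G₂ (Kq s₁ τ β Y k2 W W₀) x =
      ∫ x, (-((χ x : ℂ) * ∑ i, ∑ j, (VS s₁ s₂ τ P₁ P₂ G₂ β Γ D i j x * k2 i j x).trace) +
        (χ x : ℂ) * ∑ i, pd i (Bj s₁ s₂ P₁ P₂ G₂ Y D Γ k2 W i) x) := by
    refine integral_congr_ae (Filter.Eventually.of_forall fun x => ?_)
    show (χ x : ℂ) * dgB s₁ s₂ P₁ P₂ G₁ G₂ (Kq s₁ τ β Y k2 W W₀) x = _
    rw [eL]
    by_cases hx : x ∈ O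
    · rw [key x hx]
      ring
    · simp only [h0 x hx, Complex.ofReal_zero, zero_mul, neg_zero, add_zero]
  have e2 : ∫ x, (χ x : ℂ) * ∑ i, pd i (Bj s₁ s₂ P₁ P₂ G₂ Y D Γ k2 W i) x =
      -∫ x, ∑ j, ((pd j χ x : ℝ) : ℂ) * Bj s₁ s₂ P₁ P₂ G₂ Y D Γ k2 W j x := by
    simp only [Finset.mul_sum]
    rw [integral_finsetSum _ fun i _ => (ibp hχ hc (sB i) i).1,
      integral_finsetSum _ fun i _ => (ibp hχ hc (sB i) i).2.1, ← Finset.sum_neg_distrib]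
    exact Finset.sum_congr rfl fun i _ => (ibp hχ hc (sB i) i).2.2
  have e3 := integral_add iV.neg iB
  simp only [Pi.neg_apply] at e3
  rw [e1, e3, integral_neg, e2]
  ring

end Vale.Agent.P088.S4.H808
end
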