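import Vale.Agent.P088.R2.H349.S4.SpecA
import Vale.Agent.P088.R2.H605.V.Kla

/-!
# P088, stage 4, row X-PI: the cubic term does not contribute on the diagonal
-/

open MeasureTheory Set
open scoped ContDiff Matrix

noncomputable section

namespace Vale.Agent.P088.S4.H808

open Vale.Agent.P088.LR Vale.Agent.P088.LR.U Vale.Agent.P088.LR.H158
open Vale.Agent.P088.HY (VV)
open Vale.Agent.P088.PJ Vale.Agent.P088.PJ.H605

variable {n N : ℕ}

/-! ### calculus -/

theorem hsAdd {E : Type*} [NormedAddCommGroup E] [NormedSpace ℝ E] {v : E} {c c' d d' : E → ℂ}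
    (h : HS v c c') (g : HS v d d') : HS v (fun z => c z + d z) (fun z => c' z + d' z) := by
  refine ⟨h.sm.add g.sm, fun z => ?_⟩
  rw [fderiv_fun_add (df h.sm z) (df g.sm z), ← h.eq, ← g.eq]
  rfl

theorem sm_dm {E : Type*} [NormedAddCommGroup E] [NormedSpace ℝ E] (v : E)
    {K : E → Matrix (Fin N) (Fin N) ℂ} (hK : ∀ a b, ContDiff ℝ ∞ fun z => K z a b) :
    ∀ a b, ContDiff ℝ ∞ fun z => dm v K z a b := fun a b =>
  ((hK a b).fderiv_right (m := ∞) (by simp)).clm_apply contDiff_const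

/-- the direction `x_i` -/
def vx (i : Fin n) : VV n := (Pi.single i 1, 0)

/-- the direction `y_i` -/
def vy (i : Fin n) : VV n := (0, Pi.single i 1)

theorem qq_dg (b : Fin n) (x : V n) : qq b (x, x) = 0 := by simp [qq]

/-! ### cubic terms -/

/-- A cubic term. -/
def cu (b c d : Fin n) (F : KC n N) : KC n N := fun z => (qq c z * qq d z * qq b z) • F z

section cu

variable {F : KC n N} (sF : ∀ a b, ContDiff ℝ ∞ fun z => F z a b)

include sF

theorem cu_x (b c d i : Fin n) : HD (vx i) (cu b c d F) (fun z =>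
    (((if c = i then 1 else 0) * qq d z + qq c z * (if d = i then 1 else 0)) * qq b z +
      qq c z * qq d z * (if b = i then 1 else 0)) • F z + (qq c z * qq d z * qq b z) •
        dm (vx i) F z) :=
  HD.smul (((hs_qx c i).mul (hs_qx d i)).mul (hs_qx b i)) (HD.of sF)

theorem cu_y (b c d j : Fin n) : HD (vy j) (cu b c d F) (fun z =>
    (((if c = j then -1 else 0) * qq d z + qq c z * (if d = j then -1 else 0)) * qq b z +
      qq c z * qq d z * (if b = j then -1 else 0)) • F z + (qq c z * qq d z * qq b z) •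
        dm (vy j) F z) :=
  HD.smul (((hs_qy c j).mul (hs_qy d j)).mul (hs_qy b j)) (HD.of sF)

theorem cu_dx (b c d i : Fin n) (x : V n) : dm (vx i) (cu b c d F) (x, x) = 0 := by
  rw [(cu_x sF b c d i).eq]
  simp only [qq_dg, mul_zero, zero_mul, add_zero, zero_smul]

theorem cu_dxy (b c d i j : Fin n) (x : V n) :
    dm (vx i) (dm (vy j) (cu b c d F)) (x, x) = 0 := by
  rw [(cu_y sF b c d j).eq]
  have h := (HD.smul (hsAdd ((hsAdd ((HS.const (if c = j then (-1 : ℂ) else 0)).mul (hs_qx d i))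
    ((hs_qx c i).mul (HS.const (if d = j then (-1 : ℂ) else 0)))).mul (hs_qx b i))
    (((hs_qx c i).mul (hs_qx d i)).mul (HS.const (if b = j then (-1 : ℂ) else 0))))
    (HD.of sF (v := vx i))).add
    (HD.smul (((hs_qx c i).mul (hs_qx d i)).mul (hs_qx b i)) (HD.of (sm_dm (vy j) sF) (v := vx i)))
  refine (congrFun h.eq (x, x)).trans ?_
  simp only [qq_dg, mul_zero, zero_mul, add_zero, zero_smul]

end cu

/-- A sum of cubic terms. -/
def cs (F : Fin n → Fin n → Fin n → KC n N) : KC n N := fun z =>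
  ∑ b, ∑ c, ∑ d, cu b c d (F b c d) z

section cs

variable {F : Fin n → Fin n → Fin n → KC n N}
  (sF : ∀ b c d p q, ContDiff ℝ ∞ fun z => F b c d z p q)

include sF

theorem sm_cs : ∀ a b, ContDiff ℝ ∞ fun z => cs F z a b :=
  (HD.sum fun b => HD.sum fun c => HD.sum fun d =>
    HD.of (v := (0 : VV n)) (cu_x (sF b c d) b c d b).sm).sm

theorem cs_d (v : VV n) : dm v (cs F) = fun z => ∑ b, ∑ c, ∑ d, dm v (cu b c d (F b c d)) z :=
  (HD.sum fun b => HD.sum fun c => HD.sum fun d =>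
    HD.of (v := v) (cu_x (sF b c d) b c d b).sm).eq

theorem cs_dx (i : Fin n) (x : V n) : dm (vx i) (cs F) (x, x) = 0 := by
  rw [cs_d sF]
  simp only [cu_dx (sF _ _ _), Finset.sum_const_zero]

theorem cs_dxy (i j : Fin n) (x : V n) : dm (vx i) (dm (vy j) (cs F)) (x, x) = 0 := by
  rw [cs_d sF]
  have h := HD.sum fun b => HD.sum fun c => HD.sum fun d =>
    HD.of (v := vx i) (sm_dm (vy j) (cu_x (sF b c d) b c d b).sm)
  rw [h.eq]
  simp only [cu_dxy (sF _ _ _), Finset.sum_const_zero]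

end cs

/-! ### the cubic term of the approximate solution -/

/-- The coefficients of the cubic term. -/
def cF (s₁ σ : MF n) (β : Fin n → MC n N) (k2 : Fin n → Fin n → MC n N)
    (b c d : Fin n) : KC n N := fun z =>
  ((-(σ z.2 c d / (2 * (n + 2))) : ℝ) : ℂ) • lb s₁ β k2 b z.2

theorem c3_eq (s₁ σ : MF n) (β : Fin n → MC n N)
    (k2 : Fin n → Fin n → MC n N) : c3 s₁ σ β k2 = cs (cF s₁ σ β k2) := by
  funext z
  unfold c3 cs cu cF
  rw [Finset.smul_sum]
  refine Finset.sum_congr rfl fun b _ => ?_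
  have e : ((-(∑ c, ∑ d, σ z.2 c d * (z.1 c - z.2 c) * (z.1 d - z.2 d)) / (2 * (n + 2)) : ℝ) : ℂ)
      = ∑ c, ∑ d, qq c z * qq d z * ((-(σ z.2 c d / (2 * (n + 2))) : ℝ) : ℂ) := by
    unfold qq
    rw [neg_div, Finset.sum_div, ← Finset.sum_neg_distrib, Complex.ofReal_sum]
    refine Finset.sum_congr rfl fun c _ => ?_
    rw [Finset.sum_div, ← Finset.sum_neg_distrib, Complex.ofReal_sum]
    refine Finset.sum_congr rfl fun d _ => ?_
    push_cast
    ring
  rw [e, Finset.sum_smul]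
  refine Finset.sum_congr rfl fun c _ => ?_
  rw [Finset.sum_smul]
  refine Finset.sum_congr rfl fun d _ => ?_
  show _ • (qq b z • _) = _
  simp only [smul_smul]
  congr 1
  ring

theorem Kq_eq (s₁ σ : MF n) (β Y : Fin n → MC n N)
    (k2 : Fin n → Fin n → MC n N) (W : Fin n → MC n N) (W₀ : MC n N) :
    Kq s₁ σ β Y k2 W W₀ = fun z => Kf k2 Y W W₀ z + cs (cF s₁ σ β k2) z := by
  funext z
  rw [← c3_eq]
  unfold Kq Kf qq
  push_cast
  abel

theorem smC_lb {s₁ : MF n} (hs : SmM s₁) {β : Fin n → MC n N} (sb : ∀ i, SmC (β i))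
    {k2 : Fin n → Fin n → MC n N} (sk : ∀ i j, SmC (k2 i j)) (b : Fin n) :
    SmC (lb s₁ β k2 b) := by
  exact smC_add (smC_sum fun i => smC_sum fun j => smC_smulr (contDiff_pd (hs i j) b) (sk i j))
    (smC_sum fun j => SmC_mul (sb j) (sk j b))

theorem sm_cF {s₁ σ : MF n} (hs : SmM s₁) (hσ : SmM σ) {β : Fin n → MC n N}
    (sb : ∀ i, SmC (β i)) {k2 : Fin n → Fin n → MC n N} (sk : ∀ i j, SmC (k2 i j)) (b c d : Fin n) (p q : Fin N) :
    ContDiff ℝ ∞ fun z => cF s₁ σ β k2 b c d z p q := by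
  have h1 : ContDiff ℝ ∞ fun x : V n => -(σ x c d / (2 * (n + 2) : ℝ)) :=
    ((hσ c d).div_const _).neg
  exact (smC_smulr h1 (smC_lb hs sb sk b) p q).comp contDiff_snd

/-- The values on the diagonal. -/
theorem Kq_dx {s₁ σ : MF n} (hs : SmM s₁) (hσ : SmM σ) {β : Fin n → MC n N}
    (sb : ∀ i, SmC (β i)) {Y : Fin n → MC n N} {k2 : Fin n → Fin n → MC n N} (sk : ∀ i j, SmC (k2 i j)) (sY : ∀ a, SmC (Y a))
    {W : Fin n → MC n N} {W₀ : MC n N} (sW : ∀ a, SmC (W a)) (s0 : SmC W₀) (i : Fin n) (x : V n) :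
    dxk i (Kq s₁ σ β Y k2 W W₀) (x, x) = dxk i (Kf k2 Y W W₀) (x, x) := by
  rw [Kq_eq]
  have sc := sm_cF hs hσ sb sk
  have sK : ∀ a b, ContDiff ℝ ∞ fun z => Kf k2 Y W W₀ z a b := fun a b =>
    contDiffOn_univ.1 (smK_Kf sk sY sW s0 a b)
  have h := (HD.of sK (v := vx i)).add (HD.of (sm_cs sc) (v := vx i))
  show dm (vx i) _ (x, x) = dm (vx i) _ (x, x)
  rw [h.eq]
  show dm (vx i) (Kf k2 Y W W₀) (x, x) + dm (vx i) (cs (cF s₁ σ β k2)) (x, x) = _
  rw [cs_dx sc, add_zero]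

theorem Kq_dxy {s₁ σ : MF n} (hs : SmM s₁) (hσ : SmM σ) {β : Fin n → MC n N}
    (sb : ∀ i, SmC (β i)) {Y : Fin n → MC n N} {k2 : Fin n → Fin n → MC n N} (sk : ∀ i j, SmC (k2 i j)) (sY : ∀ a, SmC (Y a))
    {W : Fin n → MC n N} {W₀ : MC n N} (sW : ∀ a, SmC (W a)) (s0 : SmC W₀) (i j : Fin n)
    (x : V n) : dxk i (dyk j (Kq s₁ σ β Y k2 W W₀)) (x, x) =
      dxk i (dyk j (Kf k2 Y W W₀)) (x, x) := by
  rw [Kq_eq]
  have sc := sm_cF hs hσ sb sk
  have sK : ∀ a b, ContDiff ℝ ∞ fun z => Kf k2 Y W W₀ z a b := fun a b =>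
    contDiffOn_univ.1 (smK_Kf sk sY sW s0 a b)
  have h := (HD.of sK (v := vy j)).add (HD.of (sm_cs sc) (v := vy j))
  show dm (vx i) (dm (vy j) _) (x, x) = dm (vx i) (dm (vy j) _) (x, x)
  rw [h.eq]
  have h2 := (HD.of (sm_dm (vy j) sK) (v := vx i)).add
    (HD.of (sm_dm (vy j) (sm_cs sc)) (v := vx i))
  rw [h2.eq]
  show dm (vx i) (dm (vy j) (Kf k2 Y W W₀)) (x, x) +
    dm (vx i) (dm (vy j) (cs (cF s₁ σ β k2))) (x, x) = _
  rw [cs_dxy sc, add_zero]

end Vale.Agent.P088.S4.H808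
end
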